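import Vale.Agent.Lib.P345.Final

/-!
# P345: single-fold Diophantine representations of Presburger-definable sets

Every subset of `ℕ^n` that is first-order definable in Presburger arithmetic `(ℕ, 0, 1, +)`
(with parameters) has a single-fold Diophantine representation, and so does its complement.

The proof shows that the sets whose characteristic function has a single-fold representation
with a flag form a Boolean algebra containing all sign conditions and all fixed-modulus
divisibility conditions on integer polynomials, and writes every proper linear set as a finite
intersection of such conditions (Cramer's rule for the Gram matrix of the periods).
-/

namespace Vale.Agent.Results.P345.PresburgerSingleFold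

open Vale.Agent.Lib.P345

theorem result (n : ℕ) (A : Set ℕ) (S : Set (Fin n → ℕ))
    (hS : A.Definable FirstOrder.Language.presburger S) :
    HasSingleFoldRep S ∧ HasSingleFoldRep (compl S) :=
  singleFold_of_semilinear (FirstOrder.Language.presburger.definable_iff_isSemilinearSet.mp hS)

end Vale.Agent.Results.P345.PresburgerSingleFold
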